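import Vale.Agent.P088.H198.E.Defs
import Vale.Agent.P088.H198.K.Defs

/-!
# P088, theorem JE: joint uniqueness on every smooth bounded domain, the second metric only near the
conformal class; definitions and rows (compactness, `K.FinJ` is the local theorem)
-/

open MeasureTheory Set Filter Topology
open scoped ContDiff Matrix

noncomputable section

namespace Vale.Agent.P088.LR.JE

open Vale.Agent.P088.LR Vale.Agent.P088.LR.B Vale.Agent.P088.LR.CF Vale.Agent.P088.LR.U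
  Vale.Agent.P088.LR.H158 Vale.Agent.P088.H639

variable {n N : ℕ}

/-- The second pair: the derivatives of order `l ≤ k` of `g` and `A` are at most `B l`,
`det g ≥ 1 / B 0`; `g` is `ε`-near the conformally flat metric `(det g)^(1/n) e` and `A` is
`ε`-near `0` (no derivatives). -/
structure Sc (k : ℕ) (B : ℕ → ℝ) (ε : ℝ) (g : MF n) (A : Cn n N) : Prop where
  sm : SmM g
  pd : ∀ x, (g x).PosDef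
  bg : ∀ i j, E.Cb k B (fun x => g x i j)
  dg : ∀ x, (B 0)⁻¹ ≤ (g x).det
  ng : ∀ i j x, |g x i j - sc (fun x => (g x).det ^ (1 / (n : ℝ))) x i j| ≤ ε
  su : SmU A
  ba : ∀ i a b, ∀ l ≤ k, ∀ x, ‖iteratedFDeriv ℝ l (fun x => A i x a b) x‖ ≤ B l
  na : ∀ i x a b, ‖A i x a b‖ ≤ ε

/-- The base: `c e` near `e`, `A₁` near `0`. -/
structure Bc (k : ℕ) (ε : ℝ) (c : V n → ℝ) (A₁ : Cn n N) : Prop where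
  sm : ContDiff ℝ ∞ c
  pos : ∀ x, 0 < c x
  nc : Cl k ε (fun x => c x - 1)
  su : SmU A₁
  na : ∀ i, ClC k ε (A₁ i)

/-- (JE_AAF) compactness in `C^∞` for finitely many sequences, from `H582.aa` (one sequence, any
compact set) by induction on the finite set. -/
def RowAAF : Prop := ∀ {n : ℕ} (ι : Type) [Fintype ι] (C : Set (V n)), IsCompact C →
  ∀ (B : ℕ → ℝ) (f : ι → ℕ → V n → ℝ), (∀ a m, ContDiff ℝ ∞ (f a m)) →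
  (∀ a m, ∀ x ∉ C, f a m x = 0) → (∀ a m, E.Cb m B (f a m)) →
  ∃ (φ : ℕ → ℕ) (g : ι → V n → ℝ), StrictMono φ ∧ (∀ a, ContDiff ℝ ∞ (g a)) ∧
    (∀ a, ∀ x ∉ C, g a x = 0) ∧
    ∀ (k : ℕ) (ε : ℝ), 0 < ε → ∃ M : ℕ, ∀ m ≥ M, ∀ a, Cl k ε (fun x => f a (φ m) x - g a x)

/-- (JE_ECU) the data of pairs which converge to `(σ · 1, 0)`, `(ψ · 1, 0)`: minimality, Poincaré. -/
def RowECU : Prop := ∀ {n N : ℕ}, 1 ≤ n → 1 ≤ N → ∀ Ω : Set (V n), IsOpen Ω →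
  Bornology.IsBounded Ω → ∀ (g₁ g : ℕ → MF n) (A₁ A : ℕ → Cn n N) (σ ψ : V n → ℝ) (μ : ℝ),
  (∀ m, SmM (g₁ m)) → (∀ m, SmM (g m)) → (∀ m x, (g₁ m x).PosDef) → (∀ m x, (g m x).PosDef) →
  (∀ m, SmU (A₁ m)) → (∀ m, SmU (A m)) → ContDiff ℝ ∞ σ → ContDiff ℝ ∞ ψ → 0 < μ →
  (∀ x ∈ Ω, μ ≤ σ x) → (∀ x ∈ Ω, μ ≤ ψ x) →
  (∀ ε > 0, ∃ M : ℕ, ∀ m ≥ M, ∀ x ∈ Ω, (∀ i j, |sg (g₁ m) x i j - sc σ x i j| ≤ ε) ∧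
    (∀ i j, |sg (g m) x i j - sc ψ x i j| ≤ ε) ∧ (∀ i a b, ‖A₁ m i x a b‖ ≤ ε) ∧
    ∀ i a b, ‖A m i x a b‖ ≤ ε) →
  (∀ m, SDU Ω (g₁ m) (A₁ m) (g m) (A m)) → SE Ω (sc σ) (sc ψ)

/-- (JE_SGC) continuity of `√(det g) g⁻¹` at the multiples of `1`, uniform on compact sets. -/
def RowSGC : Prop := ∀ (n : ℕ), 1 ≤ n → ∀ a b η : ℝ, 0 < a → 0 < η → ∃ δ > 0,
  ∀ (M : Matrix (Fin n) (Fin n) ℝ) (y : ℝ), a ≤ y → y ≤ b →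
  (∀ i j, |M i j - y * dl i j| ≤ δ) →
  ∀ i j, |(√M.det • M⁻¹) i j - y ^ ((n : ℝ) / 2 - 1) * dl i j| ≤ η

/-- (JE_ISOS) isotropic uniqueness on every smooth bounded domain, from `E2.RowISO` by scaling. -/
def RowISOS : Prop := ∀ {n : ℕ}, 3 ≤ n → ∀ ρ : V n → ℝ, SDom ρ → ∀ σ ψ : V n → ℝ, SmP σ → SmP ψ →
  SE (Om ρ) (sc σ) (sc ψ) → ∀ x, 0 ≤ ρ x → ψ x = σ x

/-- (JE_NEAR) the second pair is near `(e, 0)` on the domain; from AAF, ECU, SGC, ISOS. -/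
def RowNEAR : Prop := ∀ n N : ℕ, 3 ≤ n → 1 ≤ N → ∀ ρ : V n → ℝ, SDom ρ →
  ∀ (B : ℕ → ℝ) (k' : ℕ) (ε' : ℝ), 0 < ε' → ∃ (k : ℕ) (ε : ℝ), 0 < ε ∧
  ∀ (c : V n → ℝ) (A₁ : Cn n N) (g : MF n) (A₂ : Cn n N), Bc k ε c A₁ → Sc k B ε g A₂ →
  SDU (Om ρ) (sc c) A₁ g A₂ → ∃ (g' : MF n) (A' : Cn n N), SmM g' ∧ (∀ x, (g' x).PosDef) ∧
    (∀ x, 0 ≤ ρ x → g' x = g x) ∧ (∀ i j, Cl k' ε' (fun x => g' x i j - dl i j)) ∧ SmU A' ∧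
    (∀ i x, 0 ≤ ρ x → A' i x = A₂ i x) ∧ ∀ i, ClC k' ε' (A' i)

/-- **Theorem JE.** -/
def FinJE : Prop := ∀ n N : ℕ, 3 ≤ n → 1 ≤ N → ∀ ρ : V n → ℝ, SDom ρ → ∀ B : ℕ → ℝ,
  ∃ (k : ℕ) (ε : ℝ), 0 < ε ∧ ∀ (c : V n → ℝ) (A₁ : Cn n N) (g : MF n) (A₂ : Cn n N),
  Bc k ε c A₁ → Sc k B ε g A₂ → SDU (Om ρ) (sc c) A₁ g A₂ →
  ∃ (Φ Ψ : V n → V n) (U : MC n N), ContDiff ℝ ∞ Φ ∧ ContDiff ℝ ∞ Ψ ∧
    (∀ x, Ψ (Φ x) = x) ∧ (∀ y, Φ (Ψ y) = y) ∧ (∀ x, ρ x = 0 → Φ x = x) ∧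
    (∀ x, 0 < ρ (Φ x) ↔ 0 < ρ x) ∧ (∀ x, 0 < (Jm Φ x).det) ∧
    (∀ x, 0 ≤ ρ x → g x = c (Φ x) • ((Jm Φ x)ᵀ * Jm Φ x)) ∧ Gau (Om ρ) U (pbF Φ A₁) A₂

/-- (JE_FIN) -/
def RowFINJE : Prop := RowNEAR → K.FinJ → FinJE

end Vale.Agent.P088.LR.JE
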