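import Vale.Agent.P088.H833.JE.Defs

/-!
# P088, theorem JE: row JE_SGC
-/

open MeasureTheory Set Filter Topology
open scoped ContDiff Matrix

noncomputable section

namespace Vale.Agent.P088.H833.JE

open Vale.Agent.P088.LR Vale.Agent.P088.LR.B Vale.Agent.P088.LR.JE

theorem det_smul_one {n : ℕ} (y : ℝ) : (y • (1 : Matrix (Fin n) (Fin n) ℝ)).det = y ^ n := by
  rw [Matrix.det_smul, Fintype.card_fin, Matrix.det_one, mul_one]

theorem val_sgc {n : ℕ} {y : ℝ} (hy : 0 < y) (i j : Fin n) :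
    (√(y • (1 : Matrix (Fin n) (Fin n) ℝ)).det • (y • (1 : Matrix (Fin n) (Fin n) ℝ))⁻¹) i j =
      y ^ ((n : ℝ) / 2 - 1) * dl i j := by
  have h1 : (y • (1 : Matrix (Fin n) (Fin n) ℝ))⁻¹ = y⁻¹ • 1 := by
    refine Matrix.inv_eq_right_inv ?_
    rw [Matrix.smul_mul, Matrix.one_mul, smul_smul, mul_inv_cancel₀ hy.ne', one_smul]
  rw [h1, det_smul_one, smul_smul, Matrix.smul_apply, smul_eq_mul]
  congr 1
  rw [Real.sqrt_eq_rpow, ← Real.rpow_natCast y n, ← Real.rpow_mul hy.le, ← Real.rpow_neg_one y,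
    ← Real.rpow_add hy]
  congr 1
  ring

/-- (JE_SGC) -/
theorem sgc : RowSGC := by
  intro n hn a b η ha hη
  by_contra hcon
  push Not at hcon
  have h0 : ∀ m : ℕ, ∃ (M : Matrix (Fin n) (Fin n) ℝ) (y : ℝ), a ≤ y ∧ y ≤ b ∧
      (∀ i j, |M i j - y * dl i j| ≤ 1 / ((m : ℝ) + 1)) ∧
      ∃ i j, η < |(√M.det • M⁻¹) i j - y ^ ((n : ℝ) / 2 - 1) * dl i j| := fun m =>
    hcon (1 / ((m : ℝ) + 1)) (by positivity)
  choose M y hya hyb hM hbad using h0
  obtain ⟨z, hz, φ, hφ, hlim⟩ := isCompact_Icc.tendsto_subseq fun m => ⟨hya m, hyb m⟩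
  have hz0 : 0 < z := lt_of_lt_of_le ha hz.1
  -- the matrices converge
  have hMl : Tendsto (fun m => M (φ m)) atTop (𝓝 (z • (1 : Matrix (Fin n) (Fin n) ℝ))) := by
    refine tendsto_pi_nhds.2 fun i => tendsto_pi_nhds.2 fun j => ?_
    have h1 : Tendsto (fun m => y (φ m) * dl i j) atTop (𝓝 (z * dl i j)) := hlim.mul_const _
    have h2 : Tendsto (fun m => M (φ m) i j - y (φ m) * dl i j) atTop (𝓝 0) := by
      refine squeeze_zero_norm (a := fun m : ℕ => 1 / (((φ m : ℕ) : ℝ) + 1)) (fun m => ?_) ?_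
      · rw [Real.norm_eq_abs]
        exact hM (φ m) i j
      · exact tendsto_one_div_add_atTop_nhds_zero_nat.comp hφ.tendsto_atTop
    have h3 := h2.add h1
    rw [zero_add] at h3
    have e : (fun m => M (φ m) i j - y (φ m) * dl i j + y (φ m) * dl i j) =
        fun m => M (φ m) i j := by
      funext m; ring
    rw [e] at h3
    exact h3
  have hdet : Tendsto (fun m => (M (φ m)).det) atTop
      (𝓝 (z • (1 : Matrix (Fin n) (Fin n) ℝ)).det) :=
    (Continuous.matrix_det continuous_id).continuousAt.tendsto.comp hMl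
  have hzd : (z • (1 : Matrix (Fin n) (Fin n) ℝ)).det ≠ 0 := by
    rw [det_smul_one]
    exact pow_ne_zero _ hz0.ne'
  have hinv : Tendsto (fun m => (M (φ m))⁻¹) atTop
      (𝓝 (z • (1 : Matrix (Fin n) (Fin n) ℝ))⁻¹) := by
    have hadj : Tendsto (fun m => (M (φ m)).adjugate) atTop
        (𝓝 (z • (1 : Matrix (Fin n) (Fin n) ℝ)).adjugate) :=
      (Continuous.matrix_adjugate continuous_id).continuousAt.tendsto.comp hMl
    have h1 : (fun m => (M (φ m))⁻¹) = fun m => (M (φ m)).det⁻¹ • (M (φ m)).adjugate := by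
      funext m
      rw [Matrix.inv_def, Ring.inverse_eq_inv']
    rw [h1, Matrix.inv_def, Ring.inverse_eq_inv']
    exact (hdet.inv₀ hzd).smul hadj
  have hall : Tendsto (fun m => √(M (φ m)).det • (M (φ m))⁻¹) atTop
      (𝓝 (√(z • (1 : Matrix (Fin n) (Fin n) ℝ)).det •
        (z • (1 : Matrix (Fin n) (Fin n) ℝ))⁻¹)) :=
    ((Real.continuous_sqrt.tendsto _).comp hdet).smul hinv
  have hy : Tendsto (fun m => y (φ m) ^ ((n : ℝ) / 2 - 1)) atTop (𝓝 (z ^ ((n : ℝ) / 2 - 1))) :=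
    ((Real.continuousAt_rpow_const z _ (Or.inl hz0.ne')).tendsto).comp hlim
  have hev : ∀ᶠ m in atTop, ∀ i j : Fin n, |(√(M (φ m)).det • (M (φ m))⁻¹) i j -
      y (φ m) ^ ((n : ℝ) / 2 - 1) * dl i j| < η := by
    rw [eventually_all]
    intro i
    rw [eventually_all]
    intro j
    have h1 : Tendsto (fun m => (√(M (φ m)).det • (M (φ m))⁻¹) i j) atTop
        (𝓝 (z ^ ((n : ℝ) / 2 - 1) * dl i j)) := by
      have h2 := (tendsto_pi_nhds.1 ((tendsto_pi_nhds.1 hall) i)) j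
      rw [val_sgc hz0 i j] at h2
      exact h2
    have h3 := h1.sub (hy.mul_const (dl i j : ℝ))
    rw [sub_self] at h3
    have h4 := h3.abs
    rw [abs_zero] at h4
    exact h4.eventually_lt_const hη
  obtain ⟨m, hm⟩ := hev.exists
  obtain ⟨i, j, hij⟩ := hbad (φ m)
  exact absurd (hm i j) (not_lt.2 hij.le)

end Vale.Agent.P088.H833.JE
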