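import Vale.Agent.P088.H833.JE.Near
import Vale.Agent.P088.H833.JE.Sgc
import Vale.Agent.P088.H884.AAF
import Vale.Agent.P088.H925.Isos
import Vale.Agent.P088.H941.JEFin
import Vale.Agent.P088.H738.E2.All
import Vale.Agent.P088.H198.JbFin

/-!
# P088, theorem JE: assembly over the row ECU
-/

noncomputable section

namespace Vale.Agent.P088.H833.JE

open Vale.Agent.P088.LR

/-- Theorem JE over the passage to the limit in the data. -/
theorem finJE_of (hEC : JE.RowECU) : JE.FinJE :=
  Vale.Agent.P088.LR.H941.rowFINJE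
    (near Vale.Agent.P088.H884.aaf hEC sgc
      (Vale.Agent.P088.LR.H925.Isos.isos Vale.Agent.P088.LR.E2.rowISO_all))
    Vale.Agent.P088.LR.K.finJ_all198

end Vale.Agent.P088.H833.JE
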