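import Vale.Agent.P088.H833.JE.Defs

/-!
# P088, theorem JE: row JE_NEAR
-/

open MeasureTheory Set Filter Topology
open scoped ContDiff Matrix

noncomputable section

namespace Vale.Agent.P088.H833.JE

open Vale.Agent.P088.LR Vale.Agent.P088.LR.B Vale.Agent.P088.LR.CF Vale.Agent.P088.LR.U
  Vale.Agent.P088.LR.H158 Vale.Agent.P088.H639 Vale.Agent.P088.LR.JE

variable {n N : ℕ}

theorem cl_nn {F : Type*} [NormedAddCommGroup F] [NormedSpace ℝ F] {k : ℕ} {A : ℝ} {f : V n → F}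
    (h : Cl k A f) : 0 ≤ A :=
  (norm_nonneg _).trans (h 0 (Nat.zero_le _) 0)

theorem cl_mulR {k : ℕ} {A B : ℝ} {f g : V n → ℝ} (hf : ContDiff ℝ ∞ f) (hg : ContDiff ℝ ∞ g)
    (hA : Cl k A f) (hB : Cl k B g) : Cl k (2 ^ k * (A * B)) (fun x => f x * g x) := by
  intro l hl x
  have hA0 := cl_nn hA
  have hB0 := cl_nn hB
  have h1 := norm_iteratedFDeriv_mul_le (n := l) hf hg x (by exact_mod_cast le_top)
  refine h1.trans ?_
  calc ∑ i ∈ Finset.range (l + 1), (l.choose i : ℝ) * ‖iteratedFDeriv ℝ i f x‖ *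
        ‖iteratedFDeriv ℝ (l - i) g x‖
      ≤ ∑ i ∈ Finset.range (l + 1), (l.choose i : ℝ) * (A * B) := by
        refine Finset.sum_le_sum fun i hi => ?_
        have hi' : i ≤ l := by simpa [Nat.lt_succ_iff] using hi
        rw [mul_assoc]
        refine mul_le_mul_of_nonneg_left ?_ (by positivity)
        exact mul_le_mul (hA i (hi'.trans hl) x) (hB (l - i) (by omega) x) (norm_nonneg _) hA0
    _ = 2 ^ l * (A * B) := by
        rw [← Finset.sum_mul]
        congr 1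
        exact_mod_cast Nat.sum_range_choose l
    _ ≤ 2 ^ k * (A * B) := by
        refine mul_le_mul_of_nonneg_right ?_ (by positivity)
        exact pow_le_pow_right₀ (by norm_num) hl

theorem cl_addR {F : Type*} [NormedAddCommGroup F] [NormedSpace ℝ F] {k : ℕ} {A B : ℝ}
    {f g : V n → F} (hf : ContDiff ℝ ∞ f) (hg : ContDiff ℝ ∞ g)
    (hA : Cl k A f) (hB : Cl k B g) : Cl k (A + B) (fun x => f x + g x) := by
  intro l hl x
  have h1 : iteratedFDeriv ℝ l (fun x => f x + g x) x =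
      iteratedFDeriv ℝ l f x + iteratedFDeriv ℝ l g x := by
    have h2 := iteratedFDeriv_add_apply (i := l) (x := x)
      (hf.of_le (by exact_mod_cast le_top) : ContDiff ℝ l f).contDiffAt
      (hg.of_le (by exact_mod_cast le_top) : ContDiff ℝ l g).contDiffAt
    exact h2
  rw [h1]
  exact (norm_add_le _ _).trans (add_le_add (hA l hl x) (hB l hl x))

theorem cl_constR (k : ℕ) (c : ℝ) : Cl k |c| (fun _ : V n => c) := by
  intro l hl x
  rcases Nat.eq_zero_or_pos l with h | h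
  · subst h
    simp
  · rw [iteratedFDeriv_const_of_ne (by omega)]
    simp

/-- A symmetric matrix near `1` is positive. -/
theorem posDef_one {s : Matrix (Fin n) (Fin n) ℝ} (hs : s.IsSymm) {ε : ℝ}
    (h : ∀ i j, |s i j - dl i j| ≤ ε) (hε : n * ε < 1) : s.PosDef := by
  refine Matrix.PosDef.of_dotProduct_mulVec_pos ?_ fun b hb => ?_
  · rw [Matrix.IsHermitian, Matrix.conjTranspose_eq_transpose_of_trivial]
    exact hs
  · have e : star b ⬝ᵥ s *ᵥ b = ∑ i, ∑ j, s i j * b i * b j := by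
      simp only [dotProduct, Matrix.mulVec, Finset.mul_sum, star_trivial, Pi.star_apply]
      refine Finset.sum_congr rfl fun i _ => Finset.sum_congr rfl fun j _ => ?_
      ring
    rw [e]
    have hS : 0 < ∑ i, b i ^ 2 := by
      obtain ⟨i, hi⟩ := Function.ne_iff.1 hb
      have hi' : b i ≠ 0 := hi
      exact Finset.sum_pos' (fun i _ => sq_nonneg _) ⟨i, Finset.mem_univ _, by positivity⟩
    have e1 : ∑ i, ∑ j, s i j * b i * b j =
        ∑ i, b i ^ 2 + ∑ i, ∑ j, (s i j - dl i j) * b i * b j := by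
      have e2 : ∑ i, ∑ j, dl i j * b i * b j = ∑ i, b i ^ 2 := by
        refine Finset.sum_congr rfl fun i _ => ?_
        rw [Finset.sum_eq_single i]
        · rw [dl, Matrix.one_apply_eq]; ring
        · intro j _ hj
          rw [dl, Matrix.one_apply_ne (Ne.symm hj)]; ring
        · intro h; exact absurd (Finset.mem_univ _) h
      rw [← e2, ← Finset.sum_add_distrib]
      refine Finset.sum_congr rfl fun i _ => ?_
      rw [← Finset.sum_add_distrib]
      exact Finset.sum_congr rfl fun j _ => by ring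
    have e3 : -(∑ i : Fin n, ∑ j : Fin n, ε * ((b i ^ 2 + b j ^ 2) / 2)) ≤
        ∑ i, ∑ j, (s i j - dl i j) * b i * b j := by
      rw [← Finset.sum_neg_distrib]
      refine Finset.sum_le_sum fun i _ => ?_
      rw [← Finset.sum_neg_distrib]
      refine Finset.sum_le_sum fun j _ => ?_
      have h1 := h i j
      have h2 : |(s i j - dl i j) * b i * b j| ≤ ε * ((b i ^ 2 + b j ^ 2) / 2) := by
        rw [mul_assoc, abs_mul]
        have h3 : |b i * b j| ≤ (b i ^ 2 + b j ^ 2) / 2 := by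
          rw [abs_le]
          constructor <;> nlinarith [sq_nonneg (b i + b j), sq_nonneg (b i - b j)]
        exact mul_le_mul h1 h3 (abs_nonneg _) ((abs_nonneg _).trans h1)
      exact (abs_le.1 h2).1
    have e4 : ∑ i : Fin n, ∑ j : Fin n, ε * ((b i ^ 2 + b j ^ 2) / 2) =
        n * ε * ∑ i, b i ^ 2 := by
      have e5 : ∀ i : Fin n, ∑ j : Fin n, ε * ((b i ^ 2 + b j ^ 2) / 2) =
          ε * (n * b i ^ 2 + ∑ j, b j ^ 2) / 2 := by
        intro i
        rw [← Finset.mul_sum, ← Finset.sum_div, Finset.sum_add_distrib, Finset.sum_const,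
          Finset.card_univ, Fintype.card_fin, nsmul_eq_mul]
        ring
      simp only [e5]
      rw [← Finset.sum_div, ← Finset.mul_sum, Finset.sum_add_distrib, ← Finset.mul_sum,
        Finset.sum_const, Finset.card_univ, Fintype.card_fin, nsmul_eq_mul]
      ring
    rw [e1]
    rw [e4] at e3
    nlinarith

/-- Real and imaginary parts. -/
theorem it_re {F : V n → ℂ} (hF : ContDiff ℝ ∞ F) (l : ℕ) (x : V n) :
    ‖iteratedFDeriv ℝ l (fun x => (F x).re) x‖ ≤ ‖iteratedFDeriv ℝ l F x‖ := by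
  have h1 := ContinuousLinearMap.iteratedFDeriv_comp_left (f := F) Complex.reCLM (x := x) (i := l)
    (n := l) (hF.of_le (by exact_mod_cast le_top) : ContDiff ℝ l F).contDiffAt le_rfl
  have h2 : (fun x => (F x).re) = Complex.reCLM ∘ F := rfl
  rw [h2, h1]
  refine (ContinuousLinearMap.norm_compContinuousMultilinearMap_le _ _).trans ?_
  rw [Complex.reCLM_norm, one_mul]

theorem it_im {F : V n → ℂ} (hF : ContDiff ℝ ∞ F) (l : ℕ) (x : V n) :
    ‖iteratedFDeriv ℝ l (fun x => (F x).im) x‖ ≤ ‖iteratedFDeriv ℝ l F x‖ := by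
  have h1 := ContinuousLinearMap.iteratedFDeriv_comp_left (f := F) Complex.imCLM (x := x) (i := l)
    (n := l) (hF.of_le (by exact_mod_cast le_top) : ContDiff ℝ l F).contDiffAt le_rfl
  have h2 : (fun x => (F x).im) = Complex.imCLM ∘ F := rfl
  rw [h2, h1]
  refine (ContinuousLinearMap.norm_compContinuousMultilinearMap_le _ _).trans ?_
  rw [Complex.imCLM_norm, one_mul]

theorem cd_re {F : V n → ℂ} (hF : ContDiff ℝ ∞ F) : ContDiff ℝ ∞ fun x => (F x).re :=
  Complex.reCLM.contDiff.comp hF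

theorem cd_im {F : V n → ℂ} (hF : ContDiff ℝ ∞ F) : ContDiff ℝ ∞ fun x => (F x).im :=
  Complex.imCLM.contDiff.comp hF

theorem cl_of_parts {F : V n → ℂ} (hF : ContDiff ℝ ∞ F) {k : ℕ} {a b : ℝ}
    (h1 : Cl k a fun x => (F x).re) (h2 : Cl k b fun x => (F x).im) : Cl k (a + b) F := by
  have e1 : Cl k a (fun x => (((F x).re : ℝ) : ℂ)) := by
    intro l hl x
    have h := Complex.ofRealLI.norm_iteratedFDeriv_comp_left (f := fun x => (F x).re) (x := x)
      (i := l) (n := l) ((cd_re hF).of_le (by exact_mod_cast le_top) :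
        ContDiff ℝ l fun x => (F x).re).contDiffAt le_rfl
    have h3 : (fun x => (((F x).re : ℝ) : ℂ)) = Complex.ofRealLI ∘ fun x => (F x).re := rfl
    rw [h3, h]
    exact h1 l hl x
  have e2 : Cl k b (fun x => Complex.I * (((F x).im : ℝ) : ℂ)) := by
    intro l hl x
    have h := Complex.ofRealLI.norm_iteratedFDeriv_comp_left (f := fun x => (F x).im) (x := x)
      (i := l) (n := l) ((cd_im hF).of_le (by exact_mod_cast le_top) :
        ContDiff ℝ l fun x => (F x).im).contDiffAt le_rfl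
    have h3 : (fun x => Complex.I * (((F x).im : ℝ) : ℂ)) = fun x => Complex.I •
        (Complex.ofRealLI ∘ fun x => (F x).im) x := rfl
    have h4 := iteratedFDeriv_const_smul_apply' (𝕜 := ℝ) (i := l) (x := x) (a := Complex.I)
      (f := Complex.ofRealLI ∘ fun x => (F x).im)
      ((Complex.ofRealCLM.contDiff.comp (cd_im hF)).of_le (by exact_mod_cast le_top) :
        ContDiff ℝ l (Complex.ofRealLI ∘ fun x => (F x).im)).contDiffAt
    rw [h3, h4, norm_smul, Complex.norm_I, one_mul, h]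
    exact h2 l hl x
  have h5 : F = fun x => (((F x).re : ℝ) : ℂ) + Complex.I * (((F x).im : ℝ) : ℂ) := by
    funext x
    rw [mul_comm]
    exact (Complex.re_add_im (F x)).symm
  rw [h5]
  exact cl_addR (Complex.ofRealCLM.contDiff.comp (cd_re hF))
    (contDiff_const.mul (Complex.ofRealCLM.contDiff.comp (cd_im hF))) e1 e2

/-- The index set: entries of `g`, real and imaginary parts of the entries of `A`. -/
abbrev Ind (n N : ℕ) : Type := (Fin n × Fin n) ⊕ (Fin n × Fin N × Fin N × Bool)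

/-- (JE_NEAR) -/
theorem near (hAA : RowAAF) (hEC : RowECU) (hSG : RowSGC) (hIS : RowISOS) : RowNEAR := by
  intro n N hn hN ρ hρ B k' ε' hε'
  have hn1 : 1 ≤ n := by omega
  obtain ⟨i₀, hi₀⟩ : ∃ i₀ : Fin n, i₀ = ⟨0, by omega⟩ := ⟨_, rfl⟩
  -- the cut-off
  obtain ⟨R, hR⟩ : ∃ R : ℝ, ∀ x, 0 ≤ ρ x → ‖x‖ ≤ R := by
    obtain ⟨R, hR⟩ := hρ.bd.exists_norm_le
    exact ⟨R, fun x hx => hR x hx⟩
  obtain ⟨χ, C, hCc, hχs, hχc, hχ0, hχ1, hχone, hχz⟩ : ∃ (χ : V n → ℝ) (C : Set (V n)),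
      IsCompact C ∧ ContDiff ℝ ∞ χ ∧ HasCompactSupport χ ∧ (∀ x, 0 ≤ χ x) ∧ (∀ x, χ x ≤ 1) ∧
      (∀ x, 0 ≤ ρ x → χ x = 1) ∧ ∀ x ∉ C, χ x = 0 := by
    obtain ⟨b, hb1, hb2⟩ : ∃ b : ContDiffBump (0 : V n), b.rIn = max R 1 ∧
        b.rOut = max R 1 + 1 :=
      ⟨⟨max R 1, max R 1 + 1, lt_of_lt_of_le one_pos (le_max_right _ _), by linarith⟩, rfl, rfl⟩
    refine ⟨b, Metric.closedBall 0 b.rOut, isCompact_closedBall _ _, b.contDiff,
      b.hasCompactSupport, fun x => b.nonneg, fun x => b.le_one, fun x hx => ?_, fun x hx => ?_⟩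
    · refine b.one_of_mem_closedBall ?_
      rw [mem_closedBall_zero_iff, hb1]
      exact (hR x hx).trans (le_max_left _ _)
    · refine b.zero_of_le_dist ?_
      rw [Metric.mem_closedBall, not_le] at hx
      exact hx.le
  have hX : ∀ l : ℕ, ∃ C : ℝ, Cl l C χ := by
    intro l
    have h2 : ∀ q : ℕ, ∃ C, ∀ x, ‖iteratedFDeriv ℝ q χ x‖ ≤ C := fun q =>
      (hχs.continuous_iteratedFDeriv (m := q) (by exact_mod_cast
        le_top)).bounded_above_of_compact_support (hχc.iteratedFDeriv q)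
    choose C hC using h2
    refine ⟨∑ i ∈ Finset.range (l + 1), |C i|, fun q hq x => ?_⟩
    exact (hC q x).trans ((le_abs_self _).trans (Finset.single_le_sum (f := fun i => |C i|)
      (fun _ _ => abs_nonneg _) (Finset.mem_range.2 (by omega))))
  choose X hX using hX
  obtain ⟨Y, hY⟩ : ∃ Y : ℕ → ℝ, ∀ l, Y l = ∑ i ∈ Finset.range (l + 1), |B i| + 1 :=
    ⟨_, fun _ => rfl⟩
  have hcut : ∀ (c₀ : ℝ), |c₀| ≤ 1 → ∀ (h : V n → ℝ) (m l : ℕ), ContDiff ℝ ∞ h →
      (∀ q ≤ m, ∀ x, ‖iteratedFDeriv ℝ q h x‖ ≤ B q) → l ≤ m →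
      Cl l (2 ^ l * (X l * Y l)) (fun x => χ x * (h x - c₀)) := by
    intro c₀ hc₀ h m l hh hb hl
    refine cl_mulR hχs (hh.sub contDiff_const) (hX l) ?_
    have h1 : Cl l (∑ i ∈ Finset.range (l + 1), |B i|) h := fun q hq x =>
      (hb q (hq.trans hl) x).trans ((le_abs_self _).trans (Finset.single_le_sum
        (f := fun i => |B i|) (fun _ _ => abs_nonneg _) (Finset.mem_range.2 (by omega))))
    have h2 := cl_addR hh contDiff_const h1 (cl_constR l (-c₀))
    intro q hq x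
    have h3 := h2 q hq x
    rw [abs_neg] at h3
    have h4 : (fun x => h x + -c₀) = fun x => h x - c₀ := by funext x; ring
    rw [h4] at h3
    refine h3.trans ?_
    rw [hY]; linarith
  by_contra hcon
  have hcon' : ∀ m : ℕ, ∃ (c : V n → ℝ) (A₁ : Cn n N) (g : MF n) (A₂ : Cn n N),
      Bc m (1 / ((m : ℝ) + 1)) c A₁ ∧ Sc m B (1 / ((m : ℝ) + 1)) g A₂ ∧
      SDU (Om ρ) (sc c) A₁ g A₂ ∧ ¬ ∃ (g' : MF n) (A' : Cn n N), SmM g' ∧
        (∀ x, (g' x).PosDef) ∧ (∀ x, 0 ≤ ρ x → g' x = g x) ∧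
        (∀ i j, Cl k' ε' (fun x => g' x i j - dl i j)) ∧ SmU A' ∧
        (∀ i x, 0 ≤ ρ x → A' i x = A₂ i x) ∧ ∀ i, ClC k' ε' (A' i) := by
    intro m
    by_contra h
    apply hcon
    refine ⟨m, 1 / ((m : ℝ) + 1), by positivity, fun c A₁ g A₂ h1 h2 h3 => ?_⟩
    by_contra h4
    exact h ⟨c, A₁, g, A₂, h1, h2, h3, h4⟩
  choose c A₁ g A₂ hB hS hD hC using hcon'
  have hdl : ∀ i j : Fin n, |(dl i j : ℝ)| ≤ 1 := fun i j => by
    rw [dl, Matrix.one_apply]; split_ifs <;> simp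
  have hdd : ∀ i : Fin n, (dl i i : ℝ) = 1 := fun i => by rw [dl, Matrix.one_apply_eq]
  have hdo : ∀ i j : Fin n, i ≠ j → (dl i j : ℝ) = 0 := fun i j h => by
    rw [dl, Matrix.one_apply_ne h]
  -- the family
  obtain ⟨f, hf1, hf2, hf3⟩ : ∃ f : Ind n N → ℕ → V n → ℝ,
      (∀ i j m x, f (Sum.inl (i, j)) m x = χ x * (g m x i j - dl i j)) ∧
      (∀ i a b m x, f (Sum.inr (i, a, b, true)) m x = χ x * (A₂ m i x a b).re) ∧
      (∀ i a b m x, f (Sum.inr (i, a, b, false)) m x = χ x * (A₂ m i x a b).im) :=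
    ⟨fun p m x => match p with
      | Sum.inl (i, j) => χ x * (g m x i j - dl i j)
      | Sum.inr (i, a, b, true) => χ x * (A₂ m i x a b).re
      | Sum.inr (i, a, b, false) => χ x * (A₂ m i x a b).im,
      fun _ _ _ _ => rfl, fun _ _ _ _ _ => rfl, fun _ _ _ _ _ => rfl⟩
  have hfe1 : ∀ i j m, f (Sum.inl (i, j)) m = fun x => χ x * (g m x i j - dl i j) :=
    fun i j m => funext (hf1 i j m)
  have hfe2 : ∀ i a b m, f (Sum.inr (i, a, b, true)) m = fun x => χ x * ((A₂ m i x a b).re - 0) :=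
    fun i a b m => funext fun x => by rw [hf2, sub_zero]
  have hfe3 : ∀ i a b m, f (Sum.inr (i, a, b, false)) m = fun x =>
      χ x * ((A₂ m i x a b).im - 0) :=
    fun i a b m => funext fun x => by rw [hf3, sub_zero]
  have hAs : ∀ m i a b, ContDiff ℝ ∞ fun x => A₂ m i x a b := fun m i a b => (hS m).su.1 i a b
  have hfs : ∀ p m, ContDiff ℝ ∞ (f p m) := by
    rintro (⟨i, j⟩ | ⟨i, a, b, _ | _⟩) m
    · rw [hfe1]; exact hχs.mul (((hS m).sm i j).sub contDiff_const)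
    · rw [hfe3]; exact hχs.mul ((cd_im (hAs m i a b)).sub contDiff_const)
    · rw [hfe2]; exact hχs.mul ((cd_re (hAs m i a b)).sub contDiff_const)
  have hfz : ∀ p m, ∀ x ∉ C, f p m x = 0 := by
    rintro (⟨i, j⟩ | ⟨i, a, b, _ | _⟩) m x hx
    · rw [hf1, hχz x hx, zero_mul]
    · rw [hf3, hχz x hx, zero_mul]
    · rw [hf2, hχz x hx, zero_mul]
  have hfb : ∀ p m, E.Cb m (fun l => 2 ^ l * (X l * Y l)) (f p m) := by
    rintro (⟨i, j⟩ | ⟨i, a, b, _ | _⟩) m l hl x
    · rw [hfe1]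
      exact hcut (dl i j) (hdl i j) _ m l ((hS m).sm i j) (fun q hq x => (hS m).bg i j q hq x) hl
        l le_rfl x
    · rw [hfe3]
      exact hcut 0 (by simp) _ m l (cd_im (hAs m i a b))
        (fun q hq x => (it_im (hAs m i a b) q x).trans ((hS m).ba i a b q hq x)) hl l le_rfl x
    · rw [hfe2]
      exact hcut 0 (by simp) _ m l (cd_re (hAs m i a b))
        (fun q hq x => (it_re (hAs m i a b) q x).trans ((hS m).ba i a b q hq x)) hl l le_rfl x
  obtain ⟨φ, G, hφ, hGs, hGz, hGc⟩ := hAA (Ind n N) C hCc _ f hfs hfz hfb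
  have hφm : ∀ m, m ≤ φ m := fun m => hφ.le_apply
  have hu : ∀ ε > 0, ∃ M : ℕ, ∀ m ≥ M, ∀ p x, |f p (φ m) x - G p x| ≤ ε := by
    intro ε hε
    obtain ⟨M, hM⟩ := hGc 0 ε hε
    refine ⟨M, fun m hm p x => ?_⟩
    have h := hM m hm p 0 le_rfl x
    rwa [norm_iteratedFDeriv_zero, Real.norm_eq_abs] at h
  have hsm : ∀ e > 0, ∃ M : ℕ, ∀ m ≥ M, 1 / (((φ m : ℕ) : ℝ) + 1) ≤ e := by
    intro e he
    obtain ⟨M, hM⟩ := exists_nat_one_div_lt he
    refine ⟨M, fun m hm => le_trans ?_ hM.le⟩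
    refine one_div_le_one_div_of_le (by positivity) ?_
    have : (M : ℝ) ≤ ((φ m : ℕ) : ℝ) := by exact_mod_cast hm.trans (hφm m)
    linarith
  -- the metric
  have hB0 : 0 < B 0 := by
    have h1 := (hS 0).bg i₀ i₀ 0 le_rfl 0
    rw [norm_iteratedFDeriv_zero, Real.norm_eq_abs] at h1
    have h2 : 0 < g 0 0 i₀ i₀ := ((hS 0).pd 0).diag_pos
    exact lt_of_lt_of_le h2 ((le_abs_self _).trans h1)
  have hghi : ∀ m x i j, |g m x i j| ≤ B 0 := by
    intro m x i j
    have h1 := (hS m).bg i j 0 (Nat.zero_le _) x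
    rwa [norm_iteratedFDeriv_zero, Real.norm_eq_abs] at h1
  obtain ⟨a₀, ha₀⟩ : ∃ a₀ : ℝ, a₀ = ((B 0)⁻¹) ^ (1 / (n : ℝ)) := ⟨_, rfl⟩
  have ha0 : 0 < a₀ := by rw [ha₀]; exact Real.rpow_pos_of_pos (inv_pos.2 hB0) _
  have hdg : ∀ m x i, |g m x i i - (g m x).det ^ (1 / (n : ℝ))| ≤ 1 / ((m : ℝ) + 1) := by
    intro m x i
    have h := (hS m).ng i i x
    have e : sc (fun x => (g m x).det ^ (1 / (n : ℝ))) x i i = (g m x).det ^ (1 / (n : ℝ)) := by
      simp [sc]
    rwa [e] at h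
  have hoff : ∀ m x i j, i ≠ j → |g m x i j| ≤ 1 / ((m : ℝ) + 1) := by
    intro m x i j hij
    have h := (hS m).ng i j x
    have e : sc (fun x => (g m x).det ^ (1 / (n : ℝ))) x i j = 0 := by
      simp [sc, Matrix.one_apply_ne hij]
    rwa [e, sub_zero] at h
  have hlow : ∀ (m : ℕ) (x : V n), a₀ - 1 / ((m : ℝ) + 1) ≤ g m x i₀ i₀ := by
    intro m x
    have h1 : a₀ ≤ (g m x).det ^ (1 / (n : ℝ)) := by
      rw [ha₀]
      exact Real.rpow_le_rpow (inv_nonneg.2 hB0.le) ((hS m).dg x) (by positivity)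
    have h2 := (abs_le.1 (hdg m x i₀)).1
    linarith
  have hiso : ∀ m x i j, |g m x i j - g m x i₀ i₀ * dl i j| ≤ 2 * (1 / ((m : ℝ) + 1)) := by
    intro m x i j
    have hp : (0 : ℝ) ≤ 1 / ((m : ℝ) + 1) := by positivity
    by_cases hij : i = j
    · subst hij
      rw [hdd, mul_one]
      have h1 := hdg m x i
      have h2 := hdg m x i₀
      rw [abs_le] at h1 h2 ⊢
      constructor <;> linarith [h1.1, h1.2, h2.1, h2.2]
    · rw [hdo i j hij, mul_zero, sub_zero]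
      exact (hoff m x i j hij).trans (by linarith)
  obtain ⟨ψc, hψc⟩ : ∃ ψc : V n → ℝ, ∀ x, ψc x = 1 + G (Sum.inl (i₀, i₀)) x := ⟨_, fun _ => rfl⟩
  have hψe : ψc = fun x => 1 + G (Sum.inl (i₀, i₀)) x := funext hψc
  obtain ⟨a, hae⟩ : ∃ a : ℝ, a = min 1 (a₀ / 2) := ⟨_, rfl⟩
  have ha : 0 < a := hae ▸ lt_min one_pos (by positivity)
  have ha1 : a ≤ 1 := hae ▸ min_le_left _ _
  have ha2 : a ≤ a₀ / 2 := hae ▸ min_le_right _ _
  have hψlo : ∀ x, a ≤ ψc x := by
    intro x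
    refine le_of_forall_pos_le_add fun ε hε => ?_
    obtain ⟨M1, hM1⟩ := hu ε hε
    obtain ⟨M2, hM2⟩ := hsm (a₀ / 2) (by positivity)
    have h1 := (abs_le.1 (hM1 (max M1 M2) (le_max_left _ _) (Sum.inl (i₀, i₀)) x)).2
    have h2 := hM2 (max M1 M2) (le_max_right _ _)
    have h3 := hlow (φ (max M1 M2)) x
    rw [hf1, hdd] at h1
    rw [hψc]
    have h4 : a ≤ g (φ (max M1 M2)) x i₀ i₀ := by linarith
    nlinarith [hχ0 x, hχ1 x, mul_nonneg (hχ0 x) (sub_nonneg.2 h4),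
      mul_nonneg (sub_nonneg.2 (hχ1 x)) (sub_nonneg.2 ha1)]
  have hψhi : ∀ x, ψc x ≤ B 0 + 2 := by
    intro x
    obtain ⟨M1, hM1⟩ := hu 1 one_pos
    have h1 := (abs_le.1 (hM1 M1 le_rfl (Sum.inl (i₀, i₀)) x)).1
    have h3 := (le_abs_self _).trans (hghi (φ M1) x i₀ i₀)
    rw [hf1, hdd] at h1
    rw [hψc]
    nlinarith [hχ0 x, hχ1 x, mul_nonneg (hχ0 x) (sub_nonneg.2 h3),
      mul_nonneg (sub_nonneg.2 (hχ1 x)) hB0.le]
  have hψcs : ContDiff ℝ ∞ ψc := by rw [hψe]; exact contDiff_const.add (hGs _)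
  have hg00 : ∀ ε > 0, ∃ M : ℕ, ∀ m ≥ M, ∀ x, 0 ≤ ρ x → |g (φ m) x i₀ i₀ - ψc x| ≤ ε := by
    intro ε hε
    obtain ⟨M, hM⟩ := hu ε hε
    refine ⟨M, fun m hm x hx => ?_⟩
    have h := hM m hm (Sum.inl (i₀, i₀)) x
    rw [hf1, hdd, hχone x hx, one_mul] at h
    rw [hψc]
    have e : g (φ m) x i₀ i₀ - (1 + G (Sum.inl (i₀, i₀)) x) =
        g (φ m) x i₀ i₀ - 1 - G (Sum.inl (i₀, i₀)) x := by ring
    rw [e]
    exact h
  have hgψ : ∀ ε > 0, ∃ M : ℕ, ∀ m ≥ M, ∀ x, 0 ≤ ρ x → ∀ i j,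
      |g (φ m) x i j - ψc x * dl i j| ≤ ε := by
    intro ε hε
    obtain ⟨M1, hM1⟩ := hg00 (ε / 2) (by positivity)
    obtain ⟨M2, hM2⟩ := hsm (ε / 4) (by positivity)
    refine ⟨max M1 M2, fun m hm x hx i j => ?_⟩
    have h1 := hM1 m ((le_max_left _ _).trans hm) x hx
    have h2 := hM2 m ((le_max_right _ _).trans hm)
    have h3 := hiso (φ m) x i j
    have e : g (φ m) x i j - ψc x * dl i j = (g (φ m) x i j - g (φ m) x i₀ i₀ * dl i j) +
        (g (φ m) x i₀ i₀ - ψc x) * dl i j := by ring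
    rw [e]
    refine (abs_add_le _ _).trans ?_
    have h4 : |(g (φ m) x i₀ i₀ - ψc x) * dl i j| ≤ ε / 2 := by
      rw [abs_mul]
      calc _ ≤ ε / 2 * 1 := mul_le_mul h1 (hdl i j) (abs_nonneg _) (by positivity)
        _ = ε / 2 := mul_one _
    linarith
  -- the limit data
  obtain ⟨ψ, hψ⟩ : ∃ ψ : V n → ℝ, ψ = fun x => ψc x ^ ((n : ℝ) / 2 - 1) := ⟨_, rfl⟩
  have hψP : SmP ψ := by
    rw [hψ]
    exact ⟨hψcs.rpow_const_of_ne fun x => (lt_of_lt_of_le ha (hψlo x)).ne', fun x =>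
      Real.rpow_pos_of_pos (lt_of_lt_of_le ha (hψlo x)) _⟩
  have hp : 0 < (n : ℝ) / 2 - 1 := by
    have : (3 : ℝ) ≤ n := by exact_mod_cast hn
    linarith
  have h1P : SmP (fun _ : V n => (1 : ℝ)) := ⟨contDiff_const, fun _ => one_pos⟩
  obtain ⟨μ, hμe⟩ : ∃ μ : ℝ, μ = a ^ ((n : ℝ) / 2 - 1) := ⟨_, rfl⟩
  have hμ : 0 < μ := by rw [hμe]; exact Real.rpow_pos_of_pos ha _
  have hμ1 : μ ≤ 1 := by rw [hμe]; exact Real.rpow_le_one ha.le ha1 hp.le
  have hSE : SE (Om ρ) (sc fun _ => (1 : ℝ)) (sc ψ) := by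
    refine hEC hn1 hN (Om ρ) (isOpen_lt continuous_const hρ.sm.continuous)
      (hρ.bd.subset fun x (hx : 0 < ρ x) => (show 0 ≤ ρ x from hx.le))
      (fun m => sc (c (φ m))) (fun m => g (φ m)) (fun m => A₁ (φ m)) (fun m => A₂ (φ m))
      (fun _ => 1) ψ μ (fun m i j => ?_) (fun m => (hS _).sm) (fun m x => ?_)
      (fun m => (hS _).pd) (fun m => (hB _).su) (fun m => (hS _).su) contDiff_const hψP.1 hμ
      (fun x _ => hμ1) (fun x _ => ?_) (fun ε hε => ?_) fun m => hD _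
    · exact (hB (φ m)).sm.mul contDiff_const
    · exact Matrix.PosDef.one.smul ((hB (φ m)).pos x)
    · rw [hψ, hμe]
      exact Real.rpow_le_rpow ha.le (hψlo x) hp.le
    · obtain ⟨δ, hδ, hSG⟩ := hSG n hn1 a (B 0 + 2) ε ha hε
      obtain ⟨M1, hM1⟩ := hgψ δ hδ
      obtain ⟨M2, hM2⟩ := hsm (min δ ε) (lt_min hδ hε)
      refine ⟨max M1 M2, fun m hm x hx => ?_⟩
      have hx0 : 0 ≤ ρ x := (show 0 < ρ x from hx).le
      have h2 := hM2 m ((le_max_right _ _).trans hm)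
      have h2a := h2.trans (min_le_left _ _)
      have h2b := h2.trans (min_le_right _ _)
      refine ⟨fun i j => ?_, fun i j => ?_, fun i a' b' => ?_, fun i a' b' => ?_⟩
      · have h3 := hSG (sc (c (φ m)) x) 1 ha1 (by linarith) (fun i j => ?_) i j
        · have e : sc (fun _ : V n => (1 : ℝ)) x i j =
              (1 : ℝ) ^ ((n : ℝ) / 2 - 1) * dl i j := by
            rw [Real.one_rpow]
            simp [sc]
          rw [e]
          exact h3
        · have h4 := (hB (φ m)).nc 0 (Nat.zero_le _) x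
          rw [norm_iteratedFDeriv_zero, Real.norm_eq_abs] at h4
          have e : sc (c (φ m)) x i j - 1 * dl i j = (c (φ m) x - 1) * dl i j := by
            simp only [sc, Matrix.smul_apply, smul_eq_mul]
            ring
          rw [e, abs_mul]
          calc _ ≤ δ * 1 := mul_le_mul (h4.trans h2a) (hdl i j) (abs_nonneg _) hδ.le
            _ = δ := mul_one _
      · have h3 := hSG (g (φ m) x) (ψc x) (hψlo x) (hψhi x)
          (fun i j => hM1 m ((le_max_left _ _).trans hm) x hx0 i j) i j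
        have e : sc ψ x i j = ψc x ^ ((n : ℝ) / 2 - 1) * dl i j := by
          simp [sc, hψ]
        rw [e]
        exact h3
      · have h4 := (hB (φ m)).na i a' b' 0 (Nat.zero_le _) x
        rw [norm_iteratedFDeriv_zero] at h4
        exact h4.trans h2b
      · exact ((hS (φ m)).na i x a' b').trans h2b
  have hψ1 : ∀ x, 0 ≤ ρ x → ψc x = 1 := by
    intro x hx
    have h1 := hIS hn ρ hρ (fun _ => 1) ψ h1P hψP hSE x hx
    rw [hψ] at h1
    have hpos := lt_of_lt_of_le ha (hψlo x)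
    have h2 : ((n : ℝ) / 2 - 1) * Real.log (ψc x) = 0 := by
      rw [← Real.log_rpow hpos]
      have h3 : ψc x ^ ((n : ℝ) / 2 - 1) = 1 := h1
      rw [h3, Real.log_one]
    exact Real.eq_one_of_pos_of_log_eq_zero hpos ((mul_eq_zero.1 h2).resolve_left hp.ne')
  -- the limits vanish
  have hG1 : ∀ i j x, 0 ≤ ρ x → G (Sum.inl (i, j)) x = 0 := by
    intro i j x hx
    refine abs_eq_zero.1 (le_antisymm ?_ (abs_nonneg _))
    refine le_of_forall_pos_le_add fun ε hε => ?_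
    obtain ⟨M1, hM1⟩ := hu (ε / 2) (by positivity)
    obtain ⟨M2, hM2⟩ := hgψ (ε / 2) (by positivity)
    have h1 := hM1 (max M1 M2) (le_max_left _ _) (Sum.inl (i, j)) x
    have h2 := hM2 (max M1 M2) (le_max_right _ _) x hx i j
    rw [hf1, hχone x hx, one_mul] at h1
    rw [hψ1 x hx, one_mul] at h2
    rw [abs_le] at h1 h2 ⊢
    constructor <;> linarith [h1.1, h1.2, h2.1, h2.2]
  have hG2 : ∀ i a b e x, G (Sum.inr (i, a, b, e)) x = 0 := by
    intro i a b e x
    refine abs_eq_zero.1 (le_antisymm ?_ (abs_nonneg _))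
    refine le_of_forall_pos_le_add fun ε hε => ?_
    obtain ⟨M1, hM1⟩ := hu (ε / 2) (by positivity)
    obtain ⟨M2, hM2⟩ := hsm (ε / 2) (by positivity)
    have h1 := hM1 (max M1 M2) (le_max_left _ _) (Sum.inr (i, a, b, e)) x
    have h2 := hM2 (max M1 M2) (le_max_right _ _)
    have h3 := (hS (φ (max M1 M2))).na i x a b
    have h4 : |f (Sum.inr (i, a, b, e)) (φ (max M1 M2)) x| ≤ ε / 2 := by
      cases e
      · rw [hf3, abs_mul, abs_of_nonneg (hχ0 x)]
        calc _ ≤ 1 * (ε / 2) := mul_le_mul (hχ1 x)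
              (((Complex.abs_im_le_norm _).trans h3).trans h2) (abs_nonneg _) zero_le_one
          _ = ε / 2 := one_mul _
      · rw [hf2, abs_mul, abs_of_nonneg (hχ0 x)]
        calc _ ≤ 1 * (ε / 2) := mul_le_mul (hχ1 x)
              (((Complex.abs_re_le_norm _).trans h3).trans h2) (abs_nonneg _) zero_le_one
          _ = ε / 2 := one_mul _
    rw [abs_le] at h1 h4 ⊢
    constructor <;> linarith [h1.1, h1.2, h4.1, h4.2]
  have hfsy : ∀ i j m x, f (Sum.inl (i, j)) m x = f (Sum.inl (j, i)) m x := by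
    intro i j m x
    have h1 := ((hS m).pd x).isHermitian
    rw [Matrix.IsHermitian, Matrix.conjTranspose_eq_transpose_of_trivial] at h1
    have h2 : g m x i j = g m x j i := by
      have := congrFun (congrFun h1 j) i
      exact this
    have h3 : (dl i j : ℝ) = dl j i := by simp only [dl, Matrix.one_apply, eq_comm]
    rw [hf1, hf1, h2, h3]
  have hGsy : ∀ i j x, G (Sum.inl (i, j)) x = G (Sum.inl (j, i)) x := by
    intro i j x
    refine sub_eq_zero.1 (abs_eq_zero.1 (le_antisymm ?_ (abs_nonneg _)))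
    refine le_of_forall_pos_le_add fun ε hε => ?_
    obtain ⟨M1, hM1⟩ := hu (ε / 2) (by positivity)
    have h1 := hM1 M1 le_rfl (Sum.inl (i, j)) x
    have h2 := hM1 M1 le_rfl (Sum.inl (j, i)) x
    rw [hfsy i j] at h1
    rw [abs_le] at h1 h2 ⊢
    constructor <;> linarith [h1.1, h1.2, h2.1, h2.2]
  -- the modified pair
  obtain ⟨η, hηe⟩ : ∃ η : ℝ, η = min (ε' / 2) (1 / (2 * ((n : ℝ) + 1))) := ⟨_, rfl⟩
  have hη : 0 < η := hηe ▸ lt_min (by positivity) (by positivity)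
  have hη1 : η ≤ ε' / 2 := hηe ▸ min_le_left _ _
  have hη2 : η ≤ 1 / (2 * ((n : ℝ) + 1)) := hηe ▸ min_le_right _ _
  obtain ⟨m, hm⟩ := hGc k' η hη
  have hm := hm m le_rfl
  refine hC (φ m) ⟨fun x => Matrix.of fun i j => dl i j +
    (f (Sum.inl (i, j)) (φ m) x - G (Sum.inl (i, j)) x),
    fun i x => Matrix.of fun a b => ((χ x : ℝ) : ℂ) * A₂ (φ m) i x a b, ?_, ?_, ?_, ?_, ?_, ?_, ?_⟩
  · intro i j
    exact contDiff_const.add ((hfs _ _).sub (hGs _))
  · intro x
    refine posDef_one ?_ (ε := η) (fun i j => ?_) ?_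
    · ext i j
      show dl j i + (f (Sum.inl (j, i)) (φ m) x - G (Sum.inl (j, i)) x) =
        dl i j + (f (Sum.inl (i, j)) (φ m) x - G (Sum.inl (i, j)) x)
      have h3 : (dl i j : ℝ) = dl j i := by simp only [dl, Matrix.one_apply, eq_comm]
      rw [hfsy i j, hGsy i j, h3]
    · have h := hm (Sum.inl (i, j)) 0 (Nat.zero_le _) x
      rw [norm_iteratedFDeriv_zero, Real.norm_eq_abs] at h
      show |dl i j + (f (Sum.inl (i, j)) (φ m) x - G (Sum.inl (i, j)) x) - dl i j| ≤ η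
      rw [add_sub_cancel_left]
      exact h
    · have h1 : (n : ℝ) * η ≤ n * (1 / (2 * ((n : ℝ) + 1))) := by gcongr
      have h2 : (n : ℝ) * (1 / (2 * ((n : ℝ) + 1))) < 1 := by
        rw [mul_one_div, div_lt_one (by positivity)]
        have : (0 : ℝ) ≤ n := by positivity
        linarith
      linarith
  · intro x hx
    ext i j
    show dl i j + (f (Sum.inl (i, j)) (φ m) x - G (Sum.inl (i, j)) x) = g (φ m) x i j
    rw [hf1, hχone x hx, hG1 i j x hx]
    ring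
  · intro i j l hl x
    have h := hm (Sum.inl (i, j)) l hl x
    have e : (fun x => (Matrix.of fun i j => dl i j +
        (f (Sum.inl (i, j)) (φ m) x - G (Sum.inl (i, j)) x)) i j - dl i j) =
        fun x => f (Sum.inl (i, j)) (φ m) x - G (Sum.inl (i, j)) x := by
      funext x
      show dl i j + (f (Sum.inl (i, j)) (φ m) x - G (Sum.inl (i, j)) x) - dl i j = _
      ring
    rw [e]
    exact h.trans (hη1.trans (by linarith))
  · refine ⟨fun i a b => ?_, fun i x => ?_⟩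
    · exact (Complex.ofRealCLM.contDiff.comp hχs).mul (hAs (φ m) i a b)
    · ext a b
      have h1 := congrFun (congrFun ((hS (φ m)).su.2 i x) a) b
      have h2 : star (A₂ (φ m) i x b a) = -A₂ (φ m) i x a b := h1
      show star (((χ x : ℝ) : ℂ) * A₂ (φ m) i x b a) = -(((χ x : ℝ) : ℂ) * A₂ (φ m) i x a b)
      rw [star_mul', h2]
      have h3 : star ((χ x : ℝ) : ℂ) = ((χ x : ℝ) : ℂ) := Complex.conj_ofReal _
      rw [h3]
      ring
  · intro i x hx
    ext a b
    show ((χ x : ℝ) : ℂ) * A₂ (φ m) i x a b = A₂ (φ m) i x a b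
    rw [hχone x hx, Complex.ofReal_one, one_mul]
  · intro i a b
    have hF : ContDiff ℝ ∞ fun x => ((χ x : ℝ) : ℂ) * A₂ (φ m) i x a b :=
      (Complex.ofRealCLM.contDiff.comp hχs).mul (hAs (φ m) i a b)
    have h1 : Cl k' η fun x => (((χ x : ℝ) : ℂ) * A₂ (φ m) i x a b).re := by
      intro l hl x
      have h := hm (Sum.inr (i, a, b, true)) l hl x
      have e : (fun x => (((χ x : ℝ) : ℂ) * A₂ (φ m) i x a b).re) =
          fun x => f (Sum.inr (i, a, b, true)) (φ m) x - G (Sum.inr (i, a, b, true)) x := by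
        funext x
        rw [hG2, hf2, sub_zero, Complex.re_ofReal_mul]
      rw [e]
      exact h
    have h2 : Cl k' η fun x => (((χ x : ℝ) : ℂ) * A₂ (φ m) i x a b).im := by
      intro l hl x
      have h := hm (Sum.inr (i, a, b, false)) l hl x
      have e : (fun x => (((χ x : ℝ) : ℂ) * A₂ (φ m) i x a b).im) =
          fun x => f (Sum.inr (i, a, b, false)) (φ m) x - G (Sum.inr (i, a, b, false)) x := by
        funext x
        rw [hG2, hf3, sub_zero, Complex.im_ofReal_mul]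
      rw [e]
      exact h
    intro l hl x
    exact (cl_of_parts hF h1 h2 l hl x).trans (by linarith)

end Vale.Agent.P088.H833.JE
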